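import Vale.Agent.P154.Noise3
import Vale.Agent.P154.Noise4

namespace Vale.Agent.Results.P154.FerroThreeFour

open Vale.Agent.P154

/-- **Three and four state ferromagnetic Potts models, all `lam ∈ [0,1]`, every tree degree.**
For `q = 3` and `q = 4`: on every `d`-ary tree (`d ≥ 2`) and on the Poisson(`d`) Galton-Watson tree
for every real `d > 0`, reconstruction occurs if and only if `d * lam ^ 2 > 1`, and
nonreconstruction if and only if `d * lam ^ 2 ≤ 1`. -/
theorem result (q : ℕ) (hq : q = 3 ∨ q = 4) (lam : ℝ) (h0 : 0 ≤ lam) (h1 : lam ≤ 1) :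
    (∀ d : ℕ, 2 ≤ d →
      (Reconstruction (aDary q lam d) ↔ 1 < (d : ℝ) * lam ^ 2) ∧
      (Nonreconstruction (aDary q lam d) ↔ (d : ℝ) * lam ^ 2 ≤ 1)) ∧
    (∀ d : ℝ, 0 < d →
      (Reconstruction (aPoisson q lam d) ↔ 1 < d * lam ^ 2) ∧
      (Nonreconstruction (aPoisson q lam d) ↔ d * lam ^ 2 ≤ 1)) := by
  have aux : ∀ (a : ℕ → ℝ) (t : ℝ), (1 < t → Reconstruction a) → (t ≤ 1 → Nonreconstruction a) →
      (Reconstruction a ↔ 1 < t) → (Reconstruction a ↔ 1 < t) ∧ (Nonreconstruction a ↔ t ≤ 1) := by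
    intro a t hR hN hiff
    refine ⟨hiff, ⟨fun h => ?_, hN⟩⟩
    by_contra hcon
    obtain ⟨L, hL, hT⟩ := hR (not_le.mp hcon)
    exact hL.ne' (tendsto_nhds_unique hT h)
  rcases hq with rfl | rfl
  · have key := Up.threshold3 (c := 1 / 20) (by norm_num) (by norm_num) corePair3 coreNoise3
      lam h0 h1
    exact ⟨fun d hd => aux _ _ (key.1 d hd).1 (key.1 d hd).2.1 (key.1 d hd).2.2,
      fun d hd => aux _ _ (key.2 d hd).1 (key.2 d hd).2.1 (key.2 d hd).2.2⟩
  · have key := threshold_of_kernel (q := 4) (by norm_num) (c := 1 / 200) (by norm_num)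
      (by norm_num) (fun lam hl => kernelCore4 lam hl.1.le hl.2.le) lam h0 h1
    exact ⟨fun d hd => aux _ _ (key.1 d hd).1 (key.1 d hd).2.1 (key.1 d hd).2.2,
      fun d hd => aux _ _ (key.2 d hd).1 (key.2 d hd).2.1 (key.2 d hd).2.2⟩

end Vale.Agent.Results.P154.FerroThreeFour
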