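import Vale.Agent.P154.Noise3
import Vale.Agent.P154.Noise4
import Vale.Agent.P154.Neg.Final
import Vale.Agent.P154.DE.RegF
import Vale.Agent.P154.DE.PoisT

namespace Vale.Agent.Results.P154.KestenStigumSharp

open Vale.Agent.P154

theorem ferro (q : ℕ) (hq : q = 3 ∨ q = 4) (lam : ℝ) (h0 : 0 ≤ lam) (h1 : lam ≤ 1) :
    (∀ d : ℕ, 2 ≤ d →
      (Reconstruction (aDary q lam d) ↔ 1 < (d : ℝ) * lam ^ 2) ∧
      (Nonreconstruction (aDary q lam d) ↔ (d : ℝ) * lam ^ 2 ≤ 1)) ∧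
    (∀ d : ℝ, 0 < d →
      (Reconstruction (aPoisson q lam d) ↔ 1 < d * lam ^ 2) ∧
      (Nonreconstruction (aPoisson q lam d) ↔ d * lam ^ 2 ≤ 1)) := by
  rcases hq with rfl | rfl
  · have key := Up.threshold3 (c := 1 / 20) (by norm_num) (by norm_num) corePair3 coreNoise3
      lam h0 h1
    exact ⟨fun d hd => Neg.iffs (key.1 d hd).1 (key.1 d hd).2.1,
      fun d hd => Neg.iffs (key.2 d hd).1 (key.2 d hd).2.1⟩
  · have key := threshold_of_kernel (q := 4) (by norm_num) (c := 1 / 200) (by norm_num)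
      (by norm_num) (fun lam hl => kernelCore4 lam hl.1.le hl.2.le) lam h0 h1
    exact ⟨fun d hd => Neg.iffs (key.1 d hd).1 (key.1 d hd).2.1,
      fun d hd => Neg.iffs (key.2 d hd).1 (key.2 d hd).2.1⟩

/-- **The reconstruction threshold for three and four state Potts channels on trees.**
For `q = 3` and every admissible `lam ∈ [-1/2, 1]`, and for `q = 4` and every `lam ∈ [0, 1]`: on
the `d`-ary tree for every integer `d ≥ 2` and on the Poisson(`d`) Galton-Watson tree for every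
real `d > 0`, reconstruction occurs if and only if `d * lam ^ 2 > 1`, and nonreconstruction if and
only if `d * lam ^ 2 ≤ 1`. -/
theorem result (q : ℕ) (lam : ℝ)
    (h : (q = 3 ∧ -(1 / 2) ≤ lam ∧ lam ≤ 1) ∨ (q = 4 ∧ 0 ≤ lam ∧ lam ≤ 1)) :
    (∀ d : ℕ, 2 ≤ d →
      (Reconstruction (aDary q lam d) ↔ 1 < (d : ℝ) * lam ^ 2) ∧
      (Nonreconstruction (aDary q lam d) ↔ (d : ℝ) * lam ^ 2 ≤ 1)) ∧
    (∀ d : ℝ, 0 < d →
      (Reconstruction (aPoisson q lam d) ↔ 1 < d * lam ^ 2) ∧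
      (Nonreconstruction (aPoisson q lam d) ↔ d * lam ^ 2 ≤ 1)) := by
  rcases le_or_gt 0 lam with h0 | h0
  · exact ferro q (by rcases h with h | h; exacts [Or.inl h.1, Or.inr h.1]) lam h0
      (by rcases h with h | h; exacts [h.2.2, h.2.2])
  · obtain ⟨rfl, h1, -⟩ : q = 3 ∧ -(1 / 2) ≤ lam ∧ lam ≤ 1 := by
      rcases h with h | h
      · exact h
      · exact absurd h.2.1 (not_le.2 h0)
    refine Neg.neg_full' (fun κ k0 k1 d _ hd => ⟨190, ?_⟩)
      (fun κ d k1 k2 hd hle => DE.pois_tend k1 k2 hd hle) lam h1 h0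
    exact (DE.reg_bound k0.le k1 hd).trans (by norm_num)

end Vale.Agent.Results.P154.KestenStigumSharp
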