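import Vale.Agent.P154.Noise3
import Vale.Agent.P154.Noise4
import Vale.Agent.P154.Neg.Pieces

namespace Vale.Agent.Results.P154.ThreeFourWide

open Vale.Agent.P154

theorem ferro (q : ℕ) (hq : q = 3 ∨ q = 4) (lam : ℝ) (h0 : 0 ≤ lam) (h1 : lam ≤ 1) :
    (∀ d : ℕ, 2 ≤ d →
      (Reconstruction (aDary q lam d) ↔ 1 < (d : ℝ) * lam ^ 2) ∧
      (Nonreconstruction (aDary q lam d) ↔ (d : ℝ) * lam ^ 2 ≤ 1)) ∧
    (∀ d : ℝ, 0 < d →
      (Reconstruction (aPoisson q lam d) ↔ 1 < d * lam ^ 2) ∧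
      (Nonreconstruction (aPoisson q lam d) ↔ d * lam ^ 2 ≤ 1)) := by
  rcases hq with rfl | rfl
  · have key := Up.threshold3 (c := 1 / 20) (by norm_num) (by norm_num) corePair3 coreNoise3
      lam h0 h1
    exact ⟨fun d hd => Neg.iffs (key.1 d hd).1 (key.1 d hd).2.1,
      fun d hd => Neg.iffs (key.2 d hd).1 (key.2 d hd).2.1⟩
  · have key := threshold_of_kernel (q := 4) (by norm_num) (c := 1 / 200) (by norm_num)
      (by norm_num) (fun lam hl => kernelCore4 lam hl.1.le hl.2.le) lam h0 h1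
    exact ⟨fun d hd => Neg.iffs (key.1 d hd).1 (key.1 d hd).2.1,
      fun d hd => Neg.iffs (key.2 d hd).1 (key.2 d hd).2.1⟩

/-- **Three and four state Potts models at the Kesten-Stigum bound.**
`q = 3` with `-1/2 ≤ lam ≤ 1`, or `q = 4` with `0 ≤ lam ≤ 1`. On the `d`-ary tree, for every
`d ≥ 2` when `lam ≥ 0` and for every `d ≥ 5` when `lam < 0`, and on the Poisson(`d`) Galton-Watson
tree for every real `d > 0` when `lam > -12/25`: reconstruction occurs if and only if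
`d * lam ^ 2 > 1`, and nonreconstruction if and only if `d * lam ^ 2 ≤ 1`. -/
theorem result (q : ℕ) (lam : ℝ)
    (h : (q = 3 ∧ -(1 / 2) ≤ lam ∧ lam ≤ 1) ∨ (q = 4 ∧ 0 ≤ lam ∧ lam ≤ 1)) :
    (∀ d : ℕ, 2 ≤ d → (0 ≤ lam ∨ 5 ≤ d) →
      (Reconstruction (aDary q lam d) ↔ 1 < (d : ℝ) * lam ^ 2) ∧
      (Nonreconstruction (aDary q lam d) ↔ (d : ℝ) * lam ^ 2 ≤ 1)) ∧
    (∀ d : ℝ, 0 < d → -(12 / 25) < lam →
      (Reconstruction (aPoisson q lam d) ↔ 1 < d * lam ^ 2) ∧
      (Nonreconstruction (aPoisson q lam d) ↔ d * lam ^ 2 ≤ 1)) := by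
  rcases le_or_gt 0 lam with h0 | h0
  · have key := ferro q (by rcases h with h | h; exacts [Or.inl h.1, Or.inr h.1]) lam h0
      (by rcases h with h | h; exacts [h.2.2, h.2.2])
    exact ⟨fun d hd _ => key.1 d hd, fun d hd _ => key.2 d hd⟩
  · obtain ⟨rfl, h1, -⟩ : q = 3 ∧ -(1 / 2) ≤ lam ∧ lam ≤ 1 := by
      rcases h with h | h
      · exact h
      · exact absurd h.2.1 (not_le.2 h0)
    obtain ⟨κ, rfl⟩ : ∃ κ, lam = -κ := ⟨-lam, by ring⟩
    have hκ0 : 0 < κ := by linarith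
    have hκ : κ ≤ 1 / 2 := by linarith
    obtain ⟨k1, k2⟩ := Neg.kapf hκ0.le hκ
    have e : (-κ) ^ 2 = κ ^ 2 := by ring
    constructor
    · intro d _ hd
      have hd5 : 5 ≤ d := by
        rcases hd with hd | hd
        · linarith
        · exact hd
      refine Neg.iffs (reconstruction_dary (by norm_num) k1 k2) fun hle => ?_
      rw [e] at hle
      exact Neg.reg_large hκ0 hκ hd5 hle
    · intro d hd hlam
      refine Neg.iffs (reconstruction_poisson (by norm_num) k1 k2 hd) fun hle => ?_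
      rw [e] at hle
      exact Neg.pois_main hκ0 (by linarith) hd hle

end Vale.Agent.Results.P154.ThreeFourWide
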